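import Vale.Agent.Lib.P333K.Pipeline

/-! Shortest common superstring: a minimum cycle cover of a substring free family, the
representatives obtained by cutting each cycle at its weakest arc have total length at most
`|W| + 2 C - 2 m` for every superstring `W`, and merging them along an order that has a fraction `a`
of the best total overlap gives a superstring of length at most `|W| + (2 - a) C ≤ (3 - a) |W|`. -/

namespace Vale.Agent.Results.P333.A_cover_pipeline

open Vale.Agent.Lib.P333K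

theorem result {α : Type*} [DecidableEq α] {ι : Type*} [Fintype ι] [DecidableEq ι] [Nonempty ι]
    (s : ι → List α) (hne : ∀ i, s i ≠ []) (hsf : ∀ i j, i ≠ j → ¬ s i <:+: s j) :
    (∃ σ : Equiv.Perm ι, (∀ τ : Equiv.Perm ι, coverCost s σ ≤ coverCost s τ) ∧
      ∃ w : Finset ι → ι, ∀ c ∈ cyclesOf σ, w c ∈ c ∧
        ∀ i ∈ c, ov (s (w c)) (s (σ (w c))) ≤ ov (s i) (s (σ i))) ∧
    ∀ (σ : Equiv.Perm ι), (∀ τ : Equiv.Perm ι, coverCost s σ ≤ coverCost s τ) →
    ∀ (w : Finset ι → ι), (∀ c ∈ cyclesOf σ, w c ∈ c ∧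
        ∀ i ∈ c, ov (s (w c)) (s (σ (w c))) ≤ ov (s i) (s (σ i))) →
      (∀ c ∈ cyclesOf σ,
        (opened s σ (w c) c).length = cycleCost s σ c + ov (s (w c)) (s (σ (w c))) ∧
        ∀ i ∈ c, s i <:+: opened s σ (w c) c) ∧
      (∀ W : List α, (∀ i, s i <:+: W) →
        coverCost s σ ≤ W.length ∧
        ∑ c ∈ cyclesOf σ, (opened s σ (w c) c).length + 2 * (cyclesOf σ).card
          ≤ W.length + 2 * coverCost s σ ∧
        ∃ W' : List α, (∀ c ∈ cyclesOf σ, opened s σ (w c) c <:+: W') ∧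
          W'.length ≤ W.length + coverCost s σ) ∧
      (∃ P : List (List α), P.Nodup ∧ (∀ z ∈ P, ∃ c ∈ cyclesOf σ, z = opened s σ (w c) c) ∧
        (∀ c ∈ cyclesOf σ, ∃ z ∈ P, opened s σ (w c) c <:+: z) ∧
        (∀ z ∈ P, ∀ z' ∈ P, z ≠ z' → ¬ z <:+: z') ∧
        ∀ P' : List (List α), P'.Perm P → ovSum P' ≤ ovSum P) ∧
      ∀ (a : ℝ), 0 ≤ a → a ≤ 1 → ∀ P : List (List α), P.Nodup →
        (∀ z ∈ P, ∃ c ∈ cyclesOf σ, z = opened s σ (w c) c) →
        (∀ c ∈ cyclesOf σ, ∃ z ∈ P, opened s σ (w c) c <:+: z) →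
        (∀ z ∈ P, ∀ z' ∈ P, z ≠ z' → ¬ z <:+: z') →
        (∀ P' : List (List α), P'.Perm P → a * (ovSum P' : ℝ) ≤ (ovSum P : ℝ)) →
        (∀ i, s i <:+: chain P) ∧
        ∀ W : List α, (∀ i, s i <:+: W) →
          ((chain P).length : ℝ) ≤ W.length + (2 - a) * coverCost s σ ∧
          ((chain P).length : ℝ) ≤ (3 - a) * W.length := by
  refine ⟨exists_min_cover s, ?_⟩
  intro σ hmin w hw
  refine ⟨?_, ?_, ?_, ?_⟩
  · intro c hc
    exact ⟨opened_length' s hne σ w hc (hw c hc).1,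
      fun i hi => infix_opened' s hne σ w hc (hw c hc).1 hi⟩
  · intro W hW
    exact ⟨coverCost_le s hne hsf σ hmin W hW, total_length_bound s hne hsf σ hmin w hw W hW,
      exists_superstring_opened s hne hsf σ w (fun c hc => (hw c hc).1) W hW⟩
  · exact exists_reduced (cyclesOf σ) (fun c => opened s σ (w c) c)
  · intro a ha0 ha1 P hnd hP hcov hsfP happ
    exact pipeline_bound s hne hsf σ hmin w hw a ha0 ha1 P hnd hP hcov hsfP happ

end Vale.Agent.Results.P333.A_cover_pipeline
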