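import Vale.Agent.Lib.P333K.Explicit

/-! An explicit procedure for the shortest common superstring problem with ratio `27/11`, whose only
nontrivial subroutines are at most `4 n + 1` assignment problems (`n` the number of representatives)
plus one assignment problem for the cycle cover. The statement quantifies over all outputs of all
subroutines (arbitrary tie breaking). -/

namespace Vale.Agent.Results.P333.A_explicit_27_11

open Vale.Agent.Lib.P333K Vale.Agent.Lib.P333.Atsp

theorem result {α : Type*} [DecidableEq α] (S : Finset (List α)) :
    (∃ out, IsRun S out) ∧
    (∀ out, IsRun S out →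
      (∀ x ∈ S, x <:+: out) ∧
        ∀ W : List α, (∀ x ∈ S, x <:+: W) → 11 * out.length ≤ 27 * W.length) ∧
    (∀ n : ℕ, 2 ≤ n → Fintype.card (Seed (Fin n)) ≤ 4 * n) := by
  refine ⟨exists_run S, fun out h => run_bound h, fun n hn => ?_⟩
  have := card_seed_le (κ := Fin n) (by simpa using hn)
  simpa using this

end Vale.Agent.Results.P333.A_explicit_27_11
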