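import Vale.Agent.Lib.P333.Main

/-!
Shortest common superstring: chains of an optimal cycle cover opened at weakest arcs.
For every order of the chains whose total overlap is at least `a` times the maximum total overlap,
the merged superstring has length at most `(3 - a)` times the length of any common superstring.
With the polynomial time `2/3`-approximation of maximum asymmetric TSP this gives the ratio `7/3`.
-/

namespace Vale.Agent.Results.P333.A_ratio

open Vale.Agent.Lib.P333

theorem result {α ι : Type*} [DecidableEq α] [Fintype ι] [DecidableEq ι]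
    (s : ι → List α) (hne : ∀ i, s i ≠ []) (hfree : ∀ i j, s i <:+: s j → i = j) :
    (∃ (σ : Equiv.Perm ι) (H : Finset ι), IsOptimalCover s σ ∧ IsWeakestHeadSet s σ H) ∧
    ∀ (σ : Equiv.Perm ι), IsOptimalCover s σ →
    ∀ (H : Finset ι), IsWeakestHeadSet s σ H →
    ∀ (W : List α), (∀ i, s i <:+: W) →
      (∑ h ∈ H, (openCycle s σ h).length ≤ W.length + 2 * coverCost s σ) ∧
      ∀ (ord : List ι), ord.Nodup → (∀ i, i ∈ ord ↔ i ∈ H) →
      ∀ (a : ℝ), 0 ≤ a → a ≤ 1 →
      (∀ ord' : List ι, ord'.Perm ord →
        a * (ovSum (ord'.map (openCycle s σ)) : ℝ) ≤ (ovSum (ord.map (openCycle s σ)) : ℝ)) →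
      (∀ i, s i <:+: mergeAll (ord.map (openCycle s σ))) ∧
      (((mergeAll (ord.map (openCycle s σ))).length : ℝ)
        ≤ W.length + (2 - a) * coverCost s σ) ∧
      (((mergeAll (ord.map (openCycle s σ))).length : ℝ) ≤ (3 - a) * W.length) := by
  classical
  constructor
  · obtain ⟨σ, hσ⟩ := Finite.exists_min (fun τ : Equiv.Perm ι => coverCost s τ)
    obtain ⟨H, hH⟩ := exists_weakestHeadSet s σ
    exact ⟨σ, H, hσ, hH⟩
  · intro σ hσ H hH W hW
    have hT : ∑ h ∈ H, (openCycle s σ h).length ≤ W.length + 2 * coverCost s σ := by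
      have hpos : ∀ i, i ∈ H.toList ↔ i ∈ H := fun i => Finset.mem_toList
      have := main_bound s hne hfree σ hσ H hH H.toList (Finset.nodup_toList H) hpos 0 le_rfl
        zero_le_one (fun ord' _ => by simp) W hW
      exact this.1
    refine ⟨hT, ?_⟩
    intro ord hnd hmem a ha0 ha1 happrox
    exact (main_bound s hne hfree σ hσ H hH ord hnd hmem a ha0 ha1 happrox W hW).2
end Vale.Agent.Results.P333.A_ratio
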